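import Mathlib
import Vale.Agent.H26.Paving
import Vale.Agent.H26.Chernoff

namespace Vale.Agent.Results.P317.KPaving

open Finset

/-- `M` is a matroid on the ground set `{1, …, n}` (all of `Fin n`) and has rank `r`. -/
def IsOfRank {n : ℕ} (M : Matroid (Fin n)) (r : ℕ) : Prop :=
  M.E = Set.univ ∧ ∀ B : Finset (Fin n), M.IsBase (B : Set (Fin n)) → B.card = r

/-- The number of bases of `M`. -/
noncomputable def numBases {n : ℕ} (M : Matroid (Fin n)) : ℕ :=
  {B : Finset (Fin n) | M.IsBase (B : Set (Fin n))}.ncard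

/-- `X` is a common base of `M₁` and `M₂`. -/
def IsCommonBase {n : ℕ} (M₁ M₂ : Matroid (Fin n)) (X : Finset (Fin n)) : Prop :=
  M₁.IsBase (X : Set (Fin n)) ∧ M₂.IsBase (X : Set (Fin n))

/-- `N(M₁, M₂)`, the number of common bases. -/
noncomputable def numCommon {n : ℕ} (M₁ M₂ : Matroid (Fin n)) : ℕ :=
  {B : Finset (Fin n) | IsCommonBase M₁ M₂ B}.ncard

/-- Every set with at most `r - k` elements is independent, i.e. every circuit has more than
`r - k` elements.  For `r` the rank of `M` and `k = 1` these are the paving matroids. -/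
def IsKPaving {n : ℕ} (M : Matroid (Fin n)) (r k : ℕ) : Prop :=
  ∀ I : Finset (Fin n), I.card + k ≤ r → M.Indep (I : Set (Fin n))

/-- The polynomial factor `D = ∑_{i < 2k} C(r, i) C(n - r, i)`. -/
def D (n r k : ℕ) : ℕ := ∑ i ∈ range (2 * k), r.choose i * (n - r).choose i

/-- `μ` is a probability law on the subsets of `{1, …, n}`. -/
def IsLaw {n : ℕ} (μ : Finset (Fin n) → ℝ) : Prop := (∀ X, 0 ≤ μ X) ∧ ∑ X, μ X = 1

/-- Total variation distance of `μ` from the uniform law on the bases of `M`. -/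
noncomputable def tvUniform {n : ℕ} (M : Matroid (Fin n)) (μ : Finset (Fin n) → ℝ) : ℝ := by
  classical exact
    (1 / 2) * ∑ X : Finset (Fin n), |μ X - if M.IsBase (X : Set (Fin n)) then
      1 / (numBases M : ℝ) else 0|

/-- Probability of the event `A` for `m` independent samples with law `μ`. -/
noncomputable def Pr {n : ℕ} (μ : Finset (Fin n) → ℝ) (m : ℕ)
    (A : (Fin m → Finset (Fin n)) → Prop) : ℝ := by
  classical exact ∑ ω : Fin m → Finset (Fin n), if A ω then ∏ i, μ (ω i) else 0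

/-- The estimator `b · (number of samples that are common bases) / m`; evaluating it takes one
independence query to each matroid per sample. -/
noncomputable def estimate {n m : ℕ} (M₁ M₂ : Matroid (Fin n)) (b : ℝ)
    (ω : Fin m → Finset (Fin n)) : ℝ := by
  classical exact b * ((univ.filter (fun i => IsCommonBase M₁ M₂ (ω i))).card : ℝ) / (m : ℝ)

theorem card_eq_ncard {n : ℕ} (P : Finset (Fin n) → Prop) [DecidablePred P] :
    (univ.filter P).card = {B : Finset (Fin n) | P B}.ncard := by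
  rw [← Set.ncard_coe_finset]
  congr 1
  ext B
  simp

theorem count_aux {n r k : ℕ} (hk : 1 ≤ k) (M₁ M₂ : Matroid (Fin n))
    (h₁ : IsOfRank M₁ r) (h₂ : IsOfRank M₂ r) (hp : IsKPaving M₁ r k)
    (hN : numCommon M₁ M₂ ≠ 0) : numBases M₂ ≤ D n r k * numCommon M₁ M₂ := by
  classical
  obtain ⟨B₀, hB₀⟩ : ∃ B, IsCommonBase M₁ M₂ B := by
    have h := Set.nonempty_of_ncard_ne_zero hN
    exact h
  have hr' : ∀ B : Set (Fin n), M₁.IsBase B → B.ncard = r := by
    intro B hB
    have := h₁.2 (Set.toFinset B) (by simpa using hB)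
    rw [← this, Set.ncard_eq_toFinset_card']
  have hk' : ∀ I ⊆ M₁.E, I.ncard + k ≤ r → M₁.Indep I := by
    intro I _ hI
    have := hp (Set.toFinset I) (by rwa [← Set.ncard_eq_toFinset_card'])
    simpa using this
  have hsub : (univ.filter (fun B : Finset (Fin n) => M₂.IsBase (B : Set (Fin n)))) ⊆
      (univ.filter (fun B => IsCommonBase M₁ M₂ B)).biUnion (fun Y =>
        univ.filter (fun X : Finset (Fin n) => X.card = r ∧ (X \ Y).card < 2 * k)) := by
    intro X hX
    simp only [mem_filter, mem_univ, true_and] at hX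
    obtain ⟨Y, hY1, hY2, hlt⟩ := Vale.Agent.H26.Paving.exists_common_near
      (h₁.1.trans h₂.1.symm) hr' hk hk' ⟨B₀, hB₀.1, hB₀.2⟩ hX
    simp only [mem_biUnion, mem_filter, mem_univ, true_and]
    refine ⟨Y.toFinset, ⟨by simpa using hY1, by simpa using hY2⟩, h₂.2 X hX, ?_⟩
    rw [← Set.ncard_coe_finset]
    simpa using hlt
  have h3 := (card_le_card hsub).trans card_biUnion_le
  have h4 : ∀ Y ∈ univ.filter (fun B => IsCommonBase M₁ M₂ B),
      (univ.filter (fun X : Finset (Fin n) => X.card = r ∧ (X \ Y).card < 2 * k)).card ≤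
        D n r k := by
    intro Y hY
    simp only [mem_filter, mem_univ, true_and] at hY
    exact Vale.Agent.H26.Paving.ball_card_le Y (h₁.2 Y hY.1)
  have h5 := h3.trans (sum_le_sum h4)
  rw [sum_const, smul_eq_mul, card_eq_ncard, card_eq_ncard] at h5
  unfold numBases numCommon
  rw [mul_comm]
  exact h5

theorem compl_base {n : ℕ} (M : Matroid (Fin n)) (hE : M.E = Set.univ) (B : Finset (Fin n)) :
    M✶.IsBase ((Bᶜ : Finset (Fin n)) : Set (Fin n)) ↔ M.IsBase (B : Set (Fin n)) := by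
  rw [Matroid.dual_isBase_iff (by rw [hE]; exact Set.subset_univ _), hE]
  simp [Set.compl_eq_univ_sdiff]

theorem isOfRank_dual {n r : ℕ} {M : Matroid (Fin n)} (h : IsOfRank M r) :
    IsOfRank M✶ (n - r) := by
  refine ⟨by simpa using h.1, fun B hB => ?_⟩
  have h1 : M.IsBase ((Bᶜ : Finset (Fin n)) : Set (Fin n)) := by
    rw [← compl_base M h.1, compl_compl]; exact hB
  have h2 := h.2 _ h1
  rw [card_compl, Fintype.card_fin] at h2
  have h3 := card_le_univ B
  rw [Fintype.card_fin] at h3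
  omega

theorem numBases_dual {n : ℕ} (M : Matroid (Fin n)) (hE : M.E = Set.univ) :
    numBases M✶ = numBases M := by
  unfold numBases
  rw [← Set.ncard_image_of_injective _ (compl_injective (α := Finset (Fin n)))]
  congr 1
  ext B
  simp only [Set.mem_image, Set.mem_ofPred_eq]
  constructor
  · rintro ⟨C, hC, rfl⟩
    rw [← compl_base M hE, compl_compl]; exact hC
  · intro hB
    exact ⟨Bᶜ, (compl_base M hE B).2 hB, compl_compl B⟩

theorem numCommon_dual {n : ℕ} (M₁ M₂ : Matroid (Fin n)) (hE₁ : M₁.E = Set.univ)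
    (hE₂ : M₂.E = Set.univ) : numCommon M₁✶ M₂✶ = numCommon M₁ M₂ := by
  unfold numCommon IsCommonBase
  rw [← Set.ncard_image_of_injective _ (compl_injective (α := Finset (Fin n)))]
  congr 1
  ext B
  simp only [Set.mem_image, Set.mem_ofPred_eq]
  constructor
  · rintro ⟨C, ⟨hC, hC'⟩, rfl⟩
    rw [← compl_base M₁ hE₁, ← compl_base M₂ hE₂, compl_compl]; exact ⟨hC, hC'⟩
  · rintro ⟨hB, hB'⟩
    exact ⟨Bᶜ, ⟨(compl_base M₁ hE₁ B).2 hB, (compl_base M₂ hE₂ B).2 hB'⟩, compl_compl B⟩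

theorem rank_le {n r : ℕ} {M : Matroid (Fin n)} (h : IsOfRank M r) : r ≤ n := by
  classical
  obtain ⟨B, hB⟩ := M.exists_isBase
  have h1 := h.2 (Set.toFinset B) (by simpa using hB)
  have h2 := card_le_univ (Set.toFinset B)
  rw [Fintype.card_fin] at h2
  omega

theorem D_symm {n r k : ℕ} (h : r ≤ n) : D n (n - r) k = D n r k := by
  unfold D
  apply sum_congr rfl
  intro i _
  rw [Nat.sub_sub_self h, mul_comm]

theorem count {n r k : ℕ} (hk : 1 ≤ k) (M₁ M₂ : Matroid (Fin n))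
    (h₁ : IsOfRank M₁ r) (h₂ : IsOfRank M₂ r)
    (hp : IsKPaving M₁ r k ∨ IsKPaving M₁✶ (n - r) k)
    (hN : numCommon M₁ M₂ ≠ 0) : numBases M₂ ≤ D n r k * numCommon M₁ M₂ := by
  rcases hp with hp | hp
  · exact count_aux hk M₁ M₂ h₁ h₂ hp hN
  · have h := count_aux hk M₁✶ M₂✶ (isOfRank_dual h₁) (isOfRank_dual h₂) hp
      (by rwa [numCommon_dual M₁ M₂ h₁.1 h₂.1])
    rwa [numCommon_dual M₁ M₂ h₁.1 h₂.1, numBases_dual M₂ h₂.1, D_symm (rank_le h₁)] at h

theorem D_le {n r k : ℕ} (h : r ≤ n) : D n r k ≤ 2 * k * (n + 1) ^ (4 * k - 2) := by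
  unfold D
  have h1 : ∀ i ∈ range (2 * k), r.choose i * (n - r).choose i ≤ (n + 1) ^ (4 * k - 2) := by
    intro i hi
    rw [mem_range] at hi
    calc r.choose i * (n - r).choose i ≤ (n + 1) ^ i * (n + 1) ^ i := by
          apply Nat.mul_le_mul
          · exact (Nat.choose_le_pow r i).trans (Nat.pow_le_pow_left (by omega) i)
          · exact (Nat.choose_le_pow (n - r) i).trans (Nat.pow_le_pow_left (by omega) i)
      _ = (n + 1) ^ (i + i) := by rw [pow_add]
      _ ≤ (n + 1) ^ (4 * k - 2) := Nat.pow_le_pow_right (by omega) (by omega)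
  calc ∑ i ∈ range (2 * k), r.choose i * (n - r).choose i
      ≤ ∑ _i ∈ range (2 * k), (n + 1) ^ (4 * k - 2) := sum_le_sum h1
    _ = 2 * k * (n + 1) ^ (4 * k - 2) := by simp

theorem cube_lo {ε : ℝ} (hε : 0 < ε) (hε1 : ε < 1) : 1 - ε ≤ (1 - ε / 4) ^ 3 := by
  have : (1 - ε / 4) ^ 3 - (1 - ε) = ε / 4 + 3 * ε ^ 2 / 16 - ε ^ 3 / 64 := by ring
  have h2 : ε ^ 3 ≤ ε ^ 2 := pow_le_pow_of_le_one hε.le hε1.le (by norm_num)
  nlinarith [sq_nonneg ε]

theorem cube_hi {ε : ℝ} (hε : 0 < ε) (hε1 : ε < 1) : (1 + ε / 4) ^ 3 ≤ 1 + ε := by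
  have : (1 + ε / 4) ^ 3 - (1 + ε) = -ε / 4 + 3 * ε ^ 2 / 16 + ε ^ 3 / 64 := by ring
  have h2 : ε ^ 2 ≤ ε := by nlinarith
  have h3 : ε ^ 3 ≤ ε := by
    calc ε ^ 3 ≤ ε ^ 1 := pow_le_pow_of_le_one hε.le hε1.le (by norm_num)
      _ = ε := pow_one ε
  linarith

theorem final_bounds {N B b c' p ε : ℝ} (hNr : 0 < N) (hBr : 0 < B) (hε : 0 < ε) (hε1 : ε < 1)
    (hp1 : (1 - ε / 4) * (N / B) ≤ p) (hp2 : p ≤ (1 + ε / 4) * (N / B))
    (hc1 : (1 - ε / 4) * p ≤ c') (hc2 : c' ≤ (1 + ε / 4) * p)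
    (hb1 : (1 - ε / 4) * B ≤ b) (hb2 : b ≤ (1 + ε / 4) * B) :
    (1 - ε) * N ≤ b * c' ∧ b * c' ≤ (1 + ε) * N := by
  have hs : (0 : ℝ) < 1 - ε / 4 := by linarith
  have hs' : (0 : ℝ) < 1 + ε / 4 := by linarith
  have hq : 0 < N / B := div_pos hNr hBr
  have hbpos : 0 < b := lt_of_lt_of_le (mul_pos hs hBr) hb1
  have hp0 : 0 < p := lt_of_lt_of_le (mul_pos hs hq) hp1
  have hc0 : 0 < c' := lt_of_lt_of_le (mul_pos hs hp0) hc1
  constructor
  · calc (1 - ε) * N ≤ (1 - ε / 4) ^ 3 * N :=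
          mul_le_mul_of_nonneg_right (cube_lo hε hε1) hNr.le
      _ = (1 - ε / 4) * B * ((1 - ε / 4) * ((1 - ε / 4) * (N / B))) := by field_simp
      _ ≤ b * c' := by
          apply mul_le_mul hb1 _ (by positivity) hbpos.le
          exact le_trans (mul_le_mul_of_nonneg_left hp1 hs.le) hc1
  · calc b * c' ≤ (1 + ε / 4) * B * ((1 + ε / 4) * ((1 + ε / 4) * (N / B))) := by
          apply mul_le_mul hb2 _ hc0.le (by positivity)
          exact le_trans hc2 (mul_le_mul_of_nonneg_left hp2 hs'.le)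
      _ = (1 + ε / 4) ^ 3 * N := by field_simp
      _ ≤ (1 + ε) * N := mul_le_mul_of_nonneg_right (cube_hi hε hε1) hNr.le

theorem exp_bound {d N B p ε δ : ℝ} {m : ℕ} (hdr : 0 < d) (hε : 0 < ε) (hε1 : ε < 1)
    (hδ : 0 < δ) (hδ1 : δ < 1) (hq : 1 / d ≤ N / B) (hp1 : (1 - ε / 4) * (N / B) ≤ p)
    (hm : 86 * d * Real.log (2 / δ) / ε ^ 2 ≤ m) :
    2 * Real.exp (-(m * p * (ε / 4) ^ 2 / 4)) ≤ δ := by
  have hlog : 0 < Real.log (2 / δ) := Real.log_pos (by rw [lt_div_iff₀ hδ]; linarith)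
  have h1 : Real.log (2 / δ) ≤ m * p * (ε / 4) ^ 2 / 4 := by
    have hp3 : 3 / 4 * (1 / d) ≤ p := by
      calc 3 / 4 * (1 / d) ≤ (1 - ε / 4) * (N / B) := by
            apply mul_le_mul (by linarith) hq (by positivity) (by linarith)
        _ ≤ p := hp1
    have h2 : 86 * d * Real.log (2 / δ) ≤ m * ε ^ 2 := by
      rw [div_le_iff₀ (by positivity)] at hm
      linarith
    have h3 : m * ε ^ 2 * (3 / 4 * (1 / d)) ≤ m * ε ^ 2 * p :=
      mul_le_mul_of_nonneg_left hp3 (by positivity)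
    have h4 : 86 * d * Real.log (2 / δ) * (3 / 4 * (1 / d)) ≤
        m * ε ^ 2 * (3 / 4 * (1 / d)) :=
      mul_le_mul_of_nonneg_right h2 (by positivity)
    have h5 : 86 * d * Real.log (2 / δ) * (3 / 4 * (1 / d)) = 64.5 * Real.log (2 / δ) := by
      field_simp; norm_num
    have h6 : m * p * (ε / 4) ^ 2 / 4 = (m * ε ^ 2 * p) / 64 := by ring
    rw [h6]
    linarith
  have h2 : Real.exp (-(m * p * (ε / 4) ^ 2 / 4)) ≤ Real.exp (-Real.log (2 / δ)) :=
    Real.exp_le_exp.2 (by linarith)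
  rw [Real.exp_neg (Real.log (2 / δ)), Real.exp_log (by positivity)] at h2
  have h3 : (2 / δ)⁻¹ = δ / 2 := by rw [inv_div]
  rw [h3] at h2
  linarith

theorem estimator {n r k : ℕ} (hk : 1 ≤ k) (M₁ M₂ : Matroid (Fin n))
    (h₁ : IsOfRank M₁ r) (h₂ : IsOfRank M₂ r)
    (hp : IsKPaving M₁ r k ∨ IsKPaving M₁✶ (n - r) k)
    (μ : Finset (Fin n) → ℝ) (b ε δ : ℝ) (m : ℕ) (hμ : IsLaw μ) (hε : 0 < ε) (hε1 : ε < 1)
    (hδ : 0 < δ) (hδ1 : δ < 1) (htv : tvUniform M₂ μ ≤ ε / (8 * D n r k))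
    (hb : |b - numBases M₂| ≤ ε / 4 * numBases M₂)
    (hm : 86 * D n r k * Real.log (2 / δ) / ε ^ 2 ≤ m) :
    1 - δ ≤ Pr μ m (fun ω =>
      (1 - ε) * numCommon M₁ M₂ ≤ estimate M₁ M₂ b ω ∧
      estimate M₁ M₂ b ω ≤ (1 + ε) * numCommon M₁ M₂) := by
  classical
  have hPr : ∀ A : (Fin m → Finset (Fin n)) → Prop,
      Pr μ m A = Vale.Agent.H26.Chernoff.prob μ m A := fun A => rfl
  rcases Nat.eq_zero_or_pos (numCommon M₁ M₂) with h0 | hpos
  · -- no common base
    have hno : ∀ X, ¬ IsCommonBase M₁ M₂ X := by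
      intro X hX
      have h := (Set.ncard_eq_zero (Set.toFinite _)).1 h0
      have : X ∈ {B : Finset (Fin n) | IsCommonBase M₁ M₂ B} := hX
      rw [h] at this
      exact this
    have hE : ∀ ω : Fin m → Finset (Fin n), estimate M₁ M₂ b ω = 0 := by
      intro ω
      unfold estimate
      simp [hno]
    have : Pr μ m (fun ω => (1 - ε) * numCommon M₁ M₂ ≤ estimate M₁ M₂ b ω ∧
      estimate M₁ M₂ b ω ≤ (1 + ε) * numCommon M₁ M₂) =
        Vale.Agent.H26.Chernoff.prob μ m (fun _ => True) := by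
      rw [hPr]
      congr 1
      ext ω
      simp [hE, h0]
    rw [this, Vale.Agent.H26.Chernoff.prob_true hμ.2]
    linarith
  · have hD : numBases M₂ ≤ D n r k * numCommon M₁ M₂ := count hk M₁ M₂ h₁ h₂ hp hpos.ne'
    have hBpos : 0 < numBases M₂ := by
      obtain ⟨X, hX⟩ : ∃ X, IsCommonBase M₁ M₂ X := Set.nonempty_of_ncard_ne_zero hpos.ne'
      unfold numBases
      rw [Set.ncard_pos (Set.toFinite _)]
      exact ⟨X, hX.2⟩
    have hDpos : 0 < D n r k := by
      by_contra h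
      have : D n r k = 0 := by omega
      rw [this] at hD
      omega
    set N : ℝ := (numCommon M₁ M₂ : ℝ) with hNdef
    set B : ℝ := (numBases M₂ : ℝ) with hBdef
    set d : ℝ := (D n r k : ℝ) with hddef
    have hNr : 0 < N := by rw [hNdef]; exact_mod_cast hpos
    have hBr : 0 < B := by rw [hBdef]; exact_mod_cast hBpos
    have hdr : 0 < d := by rw [hddef]; exact_mod_cast hDpos
    have hDr : B ≤ d * N := by rw [hBdef, hddef, hNdef]; exact_mod_cast hD
    -- the success probability of one sample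
    set p : ℝ := ∑ X, (if IsCommonBase M₁ M₂ X then μ X else 0) with hpdef
    have hpstar : ∑ X : Finset (Fin n), (if IsCommonBase M₁ M₂ X then
        (if M₂.IsBase (X : Set (Fin n)) then 1 / B else 0) else 0) = N / B := by
      have h1 : ∀ X : Finset (Fin n), (if IsCommonBase M₁ M₂ X then
        (if M₂.IsBase (X : Set (Fin n)) then 1 / B else 0) else 0) =
          if IsCommonBase M₁ M₂ X then 1 / B else 0 := by
        intro X
        by_cases hX : IsCommonBase M₁ M₂ X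
        · simp [hX, hX.2]
        · simp [hX]
      simp_rw [h1]
      rw [← sum_filter, sum_const, nsmul_eq_mul, card_eq_ncard, hNdef, numCommon]
      ring
    have hdiff : |p - N / B| ≤ ε / (4 * d) := by
      have h1 : p - N / B = ∑ X : Finset (Fin n), (if IsCommonBase M₁ M₂ X then
          (μ X - if M₂.IsBase (X : Set (Fin n)) then 1 / B else 0) else 0) := by
        rw [← hpstar, hpdef, ← sum_sub_distrib]
        apply sum_congr rfl
        intro X _
        by_cases hX : IsCommonBase M₁ M₂ X <;> simp [hX]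
      have h2 : |p - N / B| ≤ ∑ X : Finset (Fin n),
          |μ X - if M₂.IsBase (X : Set (Fin n)) then 1 / B else 0| := by
        rw [h1]
        refine (abs_sum_le_sum_abs _ _).trans (sum_le_sum ?_)
        intro X _
        by_cases hX : IsCommonBase M₁ M₂ X
        · simp [hX]
        · simp [hX]
      have h3 : ∑ X : Finset (Fin n),
          |μ X - if M₂.IsBase (X : Set (Fin n)) then 1 / B else 0| = 2 * tvUniform M₂ μ := by
        unfold tvUniform
        rw [← mul_assoc, show (2 : ℝ) * (1 / 2) = 1 by norm_num, one_mul]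
      have h4 : 2 * (ε / (8 * d)) = ε / (4 * d) := by
        field_simp; norm_num
      rw [h3] at h2
      rw [← h4]
      linarith
    have hq : 1 / d ≤ N / B := by
      rw [div_le_div_iff₀ hdr hBr]; linarith
    have hqpos : 0 < N / B := div_pos hNr hBr
    have herr : ε / (4 * d) ≤ ε / 4 * (N / B) := by
      have : ε / (4 * d) = ε / 4 * (1 / d) := by field_simp
      rw [this]
      exact mul_le_mul_of_nonneg_left hq (by linarith)
    rw [abs_le] at hdiff hb
    have hp1 : (1 - ε / 4) * (N / B) ≤ p := by nlinarith [hdiff.1]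
    have hp2 : p ≤ (1 + ε / 4) * (N / B) := by nlinarith [hdiff.2]
    have hp0 : 0 < p := lt_of_lt_of_le (mul_pos (by linarith) hqpos) hp1
    have hlog : 0 < Real.log (2 / δ) := Real.log_pos (by rw [lt_div_iff₀ hδ]; linarith)
    have hmpos : (0 : ℝ) < m := by
      refine lt_of_lt_of_le ?_ hm
      positivity
    -- Chernoff
    have hch := Vale.Agent.H26.Chernoff.chernoff (μ := μ) hμ.1 hμ.2 m
      (IsCommonBase M₁ M₂) p (ε / 4) rfl (by linarith) (by linarith)
    have hexp : 2 * Real.exp (-(m * p * (ε / 4) ^ 2 / 4)) ≤ δ :=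
      exp_bound hdr hε hε1 hδ hδ1 hq hp1 hm
    rw [hPr]
    refine le_trans (le_trans (by linarith) hch) ?_
    apply Vale.Agent.H26.Chernoff.prob_mono hμ.1
    rintro ω ⟨hlo, hhi⟩
    set c : ℝ := ((univ.filter (fun i => IsCommonBase M₁ M₂ (ω i))).card : ℝ) with hc
    have hest : estimate M₁ M₂ b ω = b * (c / m) := by
      unfold estimate
      rw [hc, mul_div_assoc]
    have hc1 : (1 - ε / 4) * p ≤ c / m := by
      rw [le_div_iff₀ hmpos]; linarith
    have hc2 : c / m ≤ (1 + ε / 4) * p := by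
      rw [div_le_iff₀ hmpos]; linarith
    have hb1 : (1 - ε / 4) * B ≤ b := by linarith [hb.1]
    have hb2 : b ≤ (1 + ε / 4) * B := by linarith [hb.2]
    rw [hest]
    exact final_bounds hNr hBr hε hε1 hp1 hp2 hc1 hc2 hb1 hb2

/-- **Counting common bases when one matroid (or its dual) is `k`-paving.**
Let `M₁, M₂` be matroids of rank `r` on `{1, …, n}`, with `M₂` arbitrary and every circuit of `M₁`
(or of its dual) longer than its rank minus `k`.  Then either there is no common base or at least a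
`1 / D` fraction of the bases of `M₂` are common bases, where `D ≤ 2 k (n + 1)^(4 k - 2)`; hence
`86 D ε⁻² log (2 / δ)` samples from any law within `ε / (8 D)` of the uniform law on the bases of
`M₂`, together with a `1 ± ε / 4` estimate `b` of the number of bases of `M₂`, give a `1 ± ε`
estimate of `N(M₁, M₂)` with probability at least `1 - δ`. -/
theorem result {n r k : ℕ} (hk : 1 ≤ k) (M₁ M₂ : Matroid (Fin n))
    (h₁ : IsOfRank M₁ r) (h₂ : IsOfRank M₂ r)
    (hp : IsKPaving M₁ r k ∨ IsKPaving M₁✶ (n - r) k) :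
    (numCommon M₁ M₂ = 0 ∨ numBases M₂ ≤ D n r k * numCommon M₁ M₂) ∧
    D n r k ≤ 2 * k * (n + 1) ^ (4 * k - 2) ∧
    ∀ (μ : Finset (Fin n) → ℝ) (b ε δ : ℝ) (m : ℕ), IsLaw μ → 0 < ε → ε < 1 → 0 < δ → δ < 1 →
      tvUniform M₂ μ ≤ ε / (8 * D n r k) →
      |b - numBases M₂| ≤ ε / 4 * numBases M₂ →
      86 * D n r k * Real.log (2 / δ) / ε ^ 2 ≤ m →
      1 - δ ≤ Pr μ m (fun ω =>
        (1 - ε) * numCommon M₁ M₂ ≤ estimate M₁ M₂ b ω ∧
        estimate M₁ M₂ b ω ≤ (1 + ε) * numCommon M₁ M₂) := by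
  refine ⟨?_, D_le (rank_le h₁), ?_⟩
  · by_cases h : numCommon M₁ M₂ = 0
    · left; exact h
    · right; exact count hk M₁ M₂ h₁ h₂ hp h
  · intro μ b ε δ m hμ hε hε1 hδ hδ1 htv hb hm
    exact estimator hk M₁ M₂ h₁ h₂ hp μ b ε δ m hμ hε hε1 hδ hδ1 htv hb hm

end Vale.Agent.Results.P317.KPaving
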